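import Vale.Agent.P254U.Cheb

open MeasureTheory Set Vale.Agent.P254
open scoped ENNReal

namespace Vale.Agent.P254B

theorem HR0_aux {x y u v : ℝ≥0∞} (h1 : y ≤ x) (h2 : v ≤ u) :
    x * v + u * y ≤ x * u + y * v := by
  obtain ⟨d, rfl⟩ := exists_add_of_le h1
  obtain ⟨e, rfl⟩ := exists_add_of_le h2
  calc (y + d) * v + (v + e) * y ≤ ((y + d) * v + (v + e) * y) + d * e := le_self_add
    _ = (y + d) * (v + e) + y * v := by ring

theorem HR0_pt {a b : ℝ → ℝ≥0∞} (ha : Antitone a) (hb : Antitone b) (s t : ℝ) :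
    a s * b t + b s * a t ≤ a s * b s + a t * b t := by
  rcases le_total s t with h | h
  · exact HR0_aux (ha h) (hb h)
  · have := HR0_aux (ha h) (hb h)
    calc a s * b t + b s * a t = a t * b s + b t * a s := by ring
      _ ≤ a t * b t + a s * b s := this
      _ = a s * b s + a t * b t := by ring

theorem HR0_cheb {μ : Measure ℝ} [IsProbabilityMeasure μ] {a b : ℝ → ℝ≥0∞}
    (ha : Measurable a) (hb : Measurable b) (ha' : Antitone a) (hb' : Antitone b) :
    (∫⁻ t, a t ∂μ) * (∫⁻ t, b t ∂μ) ≤ ∫⁻ t, a t * b t ∂μ := by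
  set A := ∫⁻ t, a t ∂μ with hA
  set B := ∫⁻ t, b t ∂μ with hB
  set P := ∫⁻ t, a t * b t ∂μ with hP
  have hab : Measurable fun t => a t * b t := ha.mul hb
  have L : ∫⁻ s, ∫⁻ t, (a s * b t + b s * a t) ∂μ ∂μ = A * B + B * A := by
    have h1 : ∀ s, ∫⁻ t, (a s * b t + b s * a t) ∂μ = a s * B + b s * A := by
      intro s
      rw [lintegral_add_left (hb.const_mul _), lintegral_const_mul _ hb,
        lintegral_const_mul _ ha]
    simp_rw [h1]
    rw [lintegral_add_left (ha.mul_const _), lintegral_mul_const _ ha,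
      lintegral_mul_const _ hb]
  have R : ∫⁻ s, ∫⁻ t, (a s * b s + a t * b t) ∂μ ∂μ = P + P := by
    have h1 : ∀ s, ∫⁻ t, (a s * b s + a t * b t) ∂μ = a s * b s + P := by
      intro s
      rw [lintegral_add_left measurable_const]
      simp [hP]
    simp_rw [h1]
    rw [lintegral_add_left hab]
    simp [hP]
  have hle : A * B + B * A ≤ P + P := by
    rw [← L, ← R]
    exact lintegral_mono fun s => lintegral_mono fun t => HR0_pt ha' hb' s t
  have h2 : 2 * (A * B) ≤ 2 * P := by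
    calc 2 * (A * B) = A * B + B * A := by ring
      _ ≤ P + P := hle
      _ = 2 * P := by ring
  exact (ENNReal.mul_le_mul_iff_right (by norm_num) (by norm_num)).1 h2

theorem HR0_pi (μ : Measure ℝ) [IsProbabilityMeasure μ] (p : ℕ) :
    ∀ F G : (Fin p → ℝ) → ℝ≥0∞, Measurable F → Measurable G → Antitone F → Antitone G →
      (∫⁻ x, F x ∂(Measure.pi fun _ => μ)) * (∫⁻ x, G x ∂(Measure.pi fun _ => μ)) ≤
        ∫⁻ x, F x * G x ∂(Measure.pi fun _ => μ) := by
  induction p with
  | zero =>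
    intro F G _ _ _ _
    simp only [lintegral_unique, measure_univ, mul_one]
    exact le_rfl
  | succ p ih =>
    intro F G hF hG hF' hG'
    set e := MeasurableEquiv.piFinSuccAbove (fun _ : Fin (p + 1) => ℝ) 0 with he
    have hmp : MeasurePreserving e.symm (μ.prod (Measure.pi fun _ : Fin p => μ))
        (Measure.pi fun _ : Fin (p + 1) => μ) :=
      (measurePreserving_piFinSuccAbove (fun _ : Fin (p + 1) => μ) 0).symm _
    have key : ∀ H : (Fin (p + 1) → ℝ) → ℝ≥0∞, Measurable H →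
        ∫⁻ x, H x ∂(Measure.pi fun _ => μ) =
          ∫⁻ t, ∫⁻ y, H (e.symm (t, y)) ∂(Measure.pi fun _ : Fin p => μ) ∂μ := by
      intro H hH
      rw [← hmp.lintegral_comp hH]
      exact lintegral_prod _ (hH.comp e.symm.measurable).aemeasurable
    have hmono : ∀ t t' : ℝ, ∀ y y' : Fin p → ℝ, t ≤ t' → y ≤ y' →
        e.symm (t, y) ≤ e.symm (t', y') := by
      intro t t' y y' ht hy
      show Fin.insertNth (α := fun _ => ℝ) 0 t y ≤ Fin.insertNth (α := fun _ => ℝ) 0 t' y'
      rw [Fin.insertNth_le_iff]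
      simpa using ⟨ht, hy⟩
    have hFm : ∀ H : (Fin (p + 1) → ℝ) → ℝ≥0∞, Measurable H →
        Measurable fun t => ∫⁻ y, H (e.symm (t, y)) ∂(Measure.pi fun _ : Fin p => μ) :=
      fun H hH => Measurable.lintegral_prod_right' (hH.comp e.symm.measurable)
    have hFa : ∀ H : (Fin (p + 1) → ℝ) → ℝ≥0∞, Antitone H →
        Antitone fun t => ∫⁻ y, H (e.symm (t, y)) ∂(Measure.pi fun _ : Fin p => μ) :=
      fun H hH s t hst => lintegral_mono fun y => hH (hmono s t y y hst le_rfl)
    rw [key F hF, key G hG, key (fun x => F x * G x) (hF.mul hG)]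
    refine (HR0_cheb (hFm F hF) (hFm G hG) (hFa F hF') (hFa G hG')).trans ?_
    refine lintegral_mono fun t => ?_
    exact ih (fun y => F (e.symm (t, y))) (fun y => G (e.symm (t, y)))
      (hF.comp (e.symm.measurable.comp measurable_prodMk_left))
      (hG.comp (e.symm.measurable.comp measurable_prodMk_left))
      (fun y y' h => hF' (hmono t t y y' le_rfl h))
      (fun y y' h => hG' (hmono t t y y' le_rfl h))

/-- HR0. Harris inequality for the uniform measure on the cube, two functions (antitone on the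
cube, all functions bounded to avoid infinities if needed). Induction on `p`: split off one
coordinate (`MeasurableEquiv.piFinSuccAbove`), one-dimensional Chebyshev
(`Vale.Agent.P254U.cheb_two` with `g` the indicator of `(0,1]`, or redo it). -/
theorem harris_two (p : ℕ) {f g : (Fin p → ℝ) → ℝ≥0∞} (hf : Measurable f) (hg : Measurable g)
    (hf' : ∀ x ∈ Icc (0 : Fin p → ℝ) 1, ∀ y ∈ Icc (0 : Fin p → ℝ) 1, x ≤ y → f y ≤ f x)
    (hg' : ∀ x ∈ Icc (0 : Fin p → ℝ) 1, ∀ y ∈ Icc (0 : Fin p → ℝ) 1, x ≤ y → g y ≤ g x) :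
    (∫⁻ x in Icc (0 : Fin p → ℝ) 1, f x) * (∫⁻ x in Icc (0 : Fin p → ℝ) 1, g x) ≤
      ∫⁻ x in Icc (0 : Fin p → ℝ) 1, f x * g x := by
  classical
  set μ : Measure ℝ := (volume : Measure ℝ).restrict (Icc 0 1) with hμ
  haveI : IsProbabilityMeasure μ := ⟨by simp [hμ]⟩
  have hpi : (volume : Measure (Fin p → ℝ)).restrict (Icc 0 1) = Measure.pi fun _ => μ := by
    rw [hμ, ← Set.pi_univ_Icc, volume_pi]
    exact Measure.restrict_pi_pi (fun _ : Fin p => (volume : Measure ℝ)) _
  set c : (Fin p → ℝ) → (Fin p → ℝ) := fun x i => max 0 (min 1 (x i)) with hc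
  have hcm : Measurable c := by
    rw [hc]
    exact measurable_pi_lambda _ fun i =>
      measurable_const.max (measurable_const.min (measurable_pi_apply i))
  have hcmono : Monotone c := fun x y h i => max_le_max le_rfl (min_le_min le_rfl (h i))
  have hcmem : ∀ x, c x ∈ Icc (0 : Fin p → ℝ) 1 := fun x =>
    ⟨fun i => le_max_left _ _, fun i => max_le zero_le_one (min_le_left _ _)⟩
  have hceq : ∀ x ∈ Icc (0 : Fin p → ℝ) 1, c x = x := by
    intro x hx
    funext i
    have h0 : 0 ≤ x i := hx.1 i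
    have h1 : x i ≤ 1 := hx.2 i
    simp [hc, h0, h1]
  have key := HR0_pi μ p (fun x => f (c x)) (fun x => g (c x)) (hf.comp hcm) (hg.comp hcm)
    (fun x y h => hf' _ (hcmem x) _ (hcmem y) (hcmono h))
    (fun x y h => hg' _ (hcmem x) _ (hcmem y) (hcmono h))
  rw [← hpi] at key
  have hs : MeasurableSet (Icc (0 : Fin p → ℝ) 1) := measurableSet_Icc
  have e1 : ∫⁻ x in Icc (0 : Fin p → ℝ) 1, f (c x) = ∫⁻ x in Icc (0 : Fin p → ℝ) 1, f x :=
    setLIntegral_congr_fun hs fun x hx => by simp only [hceq x hx]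
  have e2 : ∫⁻ x in Icc (0 : Fin p → ℝ) 1, g (c x) = ∫⁻ x in Icc (0 : Fin p → ℝ) 1, g x :=
    setLIntegral_congr_fun hs fun x hx => by simp only [hceq x hx]
  have e3 : ∫⁻ x in Icc (0 : Fin p → ℝ) 1, f (c x) * g (c x) =
      ∫⁻ x in Icc (0 : Fin p → ℝ) 1, f x * g x :=
    setLIntegral_congr_fun hs fun x hx => by simp only [hceq x hx]
  rw [e1, e2, e3] at key
  exact key

/-- HR. -/
theorem harris (p : ℕ) {m : ℕ} (f : Fin m → (Fin p → ℝ) → ℝ≥0∞) (hf : ∀ j, Measurable (f j))
    (hf' : ∀ j, ∀ x ∈ Icc (0 : Fin p → ℝ) 1, ∀ y ∈ Icc (0 : Fin p → ℝ) 1, x ≤ y →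
      f j y ≤ f j x) :
    ∏ j, (∫⁻ x in Icc (0 : Fin p → ℝ) 1, f j x) ≤
      ∫⁻ x in Icc (0 : Fin p → ℝ) 1, ∏ j, f j x := by
  induction m with
  | zero =>
    simp only [Finset.univ_eq_empty, Finset.prod_empty, lintegral_const, one_mul,
      Measure.restrict_apply_univ]
    rw [Real.volume_Icc_pi]
    simp
  | succ m ih =>
    have h1 := ih (fun j => f j.succ) (fun j => hf j.succ) (fun j => hf' j.succ)
    simp only [Fin.prod_univ_succ]
    refine (mul_le_mul_right h1 _).trans ?_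
    refine harris_two p (hf 0) (Finset.measurable_prod _ fun j _ => hf j.succ) (hf' 0) ?_
    intro x hx y hy hxy
    exact Finset.prod_le_prod' fun j _ => hf' j.succ x hx y hy hxy

end Vale.Agent.P254B
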