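import Vale.Agent.P254B.Base

open MeasureTheory Set Vale.Agent.P254
open scoped ENNReal

namespace Vale.Agent.P254B

/-- SW1. `Prod.swap` is measure preserving. -/
theorem cv_swap {p q : ℕ} (G : Fin p → Fin q → Set (ℝ × ℝ)) : cv (swapG G) = cv G := by
  have hmp : MeasurePreserving
      (MeasurableEquiv.prodComm : (Fin q → ℝ) × (Fin p → ℝ) ≃ᵐ (Fin p → ℝ) × (Fin q → ℝ))
      volume volume := Measure.measurePreserving_swap
  have e : cor (swapG G) = (MeasurableEquiv.prodComm :
      (Fin q → ℝ) × (Fin p → ℝ) ≃ᵐ (Fin p → ℝ) × (Fin q → ℝ)) ⁻¹' cor G := by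
    ext z
    constructor
    · rintro ⟨h1, h2, h3⟩
      exact ⟨h2, h1, fun i j => h3 j i⟩
    · rintro ⟨h1, h2, h3⟩
      exact ⟨h2, h1, fun j i => h3 i j⟩
  unfold cv
  rw [e]
  exact hmp.measure_preimage_equiv (cor G)

/-- SW2 -/
theorem cm_swap {p q : ℕ} (G : Fin p → Fin q → Set (ℝ × ℝ)) (j : Fin q) :
    cm (swapG G) j = ∫⁻ z in cor G, ENNReal.ofReal (z.2 j) := by
  have hmp : MeasurePreserving
      (MeasurableEquiv.prodComm : (Fin q → ℝ) × (Fin p → ℝ) ≃ᵐ (Fin p → ℝ) × (Fin q → ℝ))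
      volume volume := Measure.measurePreserving_swap
  have e : cor (swapG G) = (MeasurableEquiv.prodComm :
      (Fin q → ℝ) × (Fin p → ℝ) ≃ᵐ (Fin p → ℝ) × (Fin q → ℝ)) ⁻¹' cor G := by
    ext z
    constructor
    · rintro ⟨h1, h2, h3⟩
      exact ⟨h2, h1, fun i j => h3 j i⟩
    · rintro ⟨h1, h2, h3⟩
      exact ⟨h2, h1, fun j i => h3 i j⟩
  unfold cm
  rw [e]
  exact hmp.setLIntegral_comp_preimage_emb (MeasurableEquiv.measurableEmbedding _)
    (fun z => ENNReal.ofReal (z.2 j)) (cor G)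

/-- SC. scaling: `x = a u` maps the cube to the box `∏ [0, a_i] ⊆ up p` -/
theorem scale_le {p : ℕ} {a : Fin p → ℝ} (ha : ∀ i, 0 ≤ a i) {f : (Fin p → ℝ) → ℝ≥0∞}
    (hf : Measurable f) :
    (∏ i, ENNReal.ofReal (a i)) * ∫⁻ u in Icc (0 : Fin p → ℝ) 1, f (fun i => a i * u i) ≤
      ∫⁻ x in up p, f x := by
  classical
  by_cases hz : ∃ i, a i = 0
  · obtain ⟨i, hi⟩ := hz
    have : (∏ i, ENNReal.ofReal (a i)) = 0 := Finset.prod_eq_zero (Finset.mem_univ i) (by simp [hi])
    rw [this, zero_mul]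
    exact zero_le
  · push Not at hz
    have hpos : ∀ i, 0 < a i := fun i => lt_of_le_of_ne (ha i) (Ne.symm (hz i))
    have hdet : (Matrix.diagonal a).det = ∏ i, a i := Matrix.det_diagonal
    have hprod : 0 < ∏ i, a i := Finset.prod_pos fun i _ => hpos i
    have hne : (Matrix.diagonal a).det ≠ 0 := by rw [hdet]; exact hprod.ne'
    have key := Real.smul_map_diagonal_volume_pi (D := a) hne
    have hT : Measurable (Matrix.toLin' (Matrix.diagonal a)) :=
      (LinearMap.continuous_of_finiteDimensional _).measurable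
    have hTa : ∀ u : Fin p → ℝ, Matrix.toLin' (Matrix.diagonal a) u = fun i => a i * u i := by
      intro u; funext i; simp [Matrix.toLin'_apply, Matrix.mulVec_diagonal]
    have hup : MeasurableSet (up p) := by
      have : up p = ⋂ i, {x : Fin p → ℝ | 0 ≤ x i} := by
        ext x; simp [up]
      rw [this]
      exact MeasurableSet.iInter fun i => measurableSet_le measurable_const (measurable_pi_apply i)
    have hc : ENNReal.ofReal |(Matrix.diagonal a).det| = ∏ i, ENNReal.ofReal (a i) := by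
      rw [hdet, abs_of_pos hprod, ENNReal.ofReal_prod_of_nonneg fun i _ => ha i]
    calc (∏ i, ENNReal.ofReal (a i)) * ∫⁻ u in Icc (0 : Fin p → ℝ) 1, f (fun i => a i * u i)
        ≤ (∏ i, ENNReal.ofReal (a i)) *
          ∫⁻ u in (Matrix.toLin' (Matrix.diagonal a)) ⁻¹' (up p),
            f (Matrix.toLin' (Matrix.diagonal a) u) := by
          simp only [hTa]
          refine mul_le_mul_right (lintegral_mono_set ?_) _
          intro u hu i
          rw [hTa]
          exact mul_nonneg (ha i) (hu.1 i)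
      _ = (∏ i, ENNReal.ofReal (a i)) *
          ∫⁻ x in up p, f x ∂(Measure.map (Matrix.toLin' (Matrix.diagonal a)) volume) := by
          rw [setLIntegral_map hup hf hT]
      _ = ∫⁻ x in up p, f x := by
          conv_rhs => rw [← key]
          rw [← hc, Measure.restrict_smul, lintegral_smul_measure, smul_eq_mul]

end Vale.Agent.P254B
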