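import Vale.Agent.P254B.Jen
import Vale.Agent.P254B.Har
import Vale.Agent.P254B.Swp

open MeasureTheory Set Vale.Agent.P254
open scoped ENNReal

namespace Vale.Agent.P254B

/-- Fubini in the other order -/
theorem lint_cor' {p q : ℕ} {G : Fin p → Fin q → Set (ℝ × ℝ)} (hG : ∀ i j, Pl (G i j))
    (hp : 1 ≤ p) {f : (Fin p → ℝ) → ℝ≥0∞} (hf : Measurable f) :
    ∫⁻ z in cor G, f z.1 =
      ∫⁻ x in up p, f x * ∏ k, ENNReal.ofReal (len (swapG G) k x) := by
  have hup : MeasurableSet (up p) := by
    have : up p = ⋂ i, {x | 0 ≤ x i} := by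
      ext x
      simp [up]
    rw [this]
    exact MeasurableSet.iInter fun i => measurableSet_le measurable_const (measurable_pi_apply i)
  have hc := cor_meas hG
  have hfm : Measurable ((cor G).indicator fun z : (Fin p → ℝ) × (Fin q → ℝ) => f z.1) :=
    (hf.comp measurable_fst).indicator hc
  rw [← lintegral_indicator hc, Measure.volume_eq_prod, lintegral_prod _ hfm.aemeasurable,
    ← lintegral_indicator hup]
  refine lintegral_congr fun x => ?_
  by_cases hx : x ∈ up p
  · rw [Set.indicator_of_mem hx]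
    have h1 : ∀ y : Fin q → ℝ, (cor G).indicator (fun z : (Fin p → ℝ) × (Fin q → ℝ) => f z.1) (x, y) =
        (Set.pi univ fun k => fib (swapG G) k x).indicator (fun _ => f x) y := by
      intro y
      have h2 : (x, y) ∈ cor G ↔ y ∈ Set.pi univ fun k => fib (swapG G) k x := by
        constructor
        · rintro ⟨_, h2, h3⟩ k _
          exact ⟨h2 k, fun i => h3 i k⟩
        · intro h
          exact ⟨hx, fun k => (h k (mem_univ k)).1, fun i k => (h k (mem_univ k)).2 i⟩
      by_cases h : (x, y) ∈ cor G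
      · rw [Set.indicator_of_mem h, Set.indicator_of_mem (h2.mp h)]
      · rw [Set.indicator_of_notMem h, Set.indicator_of_notMem (fun h' => h (h2.mpr h'))]
    have h3 : MeasurableSet (Set.pi univ fun k => fib (swapG G) k x) := by
      refine MeasurableSet.univ_pi fun k => ?_
      by_cases hne : (fib (swapG G) k x).Nonempty
      · rw [fib_eq (swapG_pl hG) hp hne]
        exact measurableSet_Icc
      · rw [not_nonempty_iff_eq_empty.mp hne]
        exact MeasurableSet.empty
    simp_rw [h1]
    rw [lintegral_indicator h3, setLIntegral_const]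
    congr 1
    rw [volume_pi_pi]
    refine Finset.prod_congr rfl fun k _ => ?_
    rw [len, ENNReal.ofReal_toReal (fib_ne_top (swapG_pl hG) hp k x)]
  · rw [Set.indicator_of_notMem hx]
    have h1 : ∀ y : Fin q → ℝ, (cor G).indicator (fun z : (Fin p → ℝ) × (Fin q → ℝ) => f z.1) (x, y) = 0 := by
      intro y
      refine Set.indicator_of_notMem (fun h => hx h.1) _
    simp_rw [h1]
    simp

theorem AS_joint {p q : ℕ} {G : Fin p → Fin q → Set (ℝ × ℝ)} (hG : ∀ i j, Pl (G i j))
    (j : Fin q) : Measurable fun w : (Fin q → ℝ) × (Fin p → ℝ) =>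
      ENNReal.ofReal (len (swapG G) j fun i => len G i w.1 * w.2 i) := by
  have hm : Measurable fun x : Fin p → ℝ => ENNReal.ofReal (len (swapG G) j x) :=
    (len_meas (swapG_pl hG) j).ennreal_ofReal
  refine hm.comp (measurable_pi_lambda _ fun i => ?_)
  exact ((len_meas hG i).comp measurable_fst).mul ((measurable_pi_apply i).comp measurable_snd)

theorem AS_swap {p q : ℕ} {G : Fin p → Fin q → Set (ℝ × ℝ)} (hG : ∀ i j, Pl (G i j))
    (j : Fin q) :
    ∫⁻ y in up q, (∏ k, ENNReal.ofReal (len G k y)) *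
          ∫⁻ u in Icc (0 : Fin p → ℝ) 1,
            ENNReal.ofReal (len (swapG G) j fun i => len G i y * u i) =
        ∫⁻ u in Icc (0 : Fin p → ℝ) 1, ∫⁻ y in up q, (∏ k, ENNReal.ofReal (len G k y)) *
            ENNReal.ofReal (len (swapG G) j fun i => len G i y * u i) := by
  have hj := AS_joint hG j
  have hmk : Measurable fun y : Fin q → ℝ => ∏ k, ENNReal.ofReal (len G k y) :=
    Finset.measurable_prod _ fun k _ => (len_meas hG k).ennreal_ofReal
  have e3 : ∀ y : Fin q → ℝ, (∏ k, ENNReal.ofReal (len G k y)) *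
      ∫⁻ u in Icc (0 : Fin p → ℝ) 1,
        ENNReal.ofReal (len (swapG G) j fun i => len G i y * u i) =
      ∫⁻ u in Icc (0 : Fin p → ℝ) 1, (∏ k, ENNReal.ofReal (len G k y)) *
        ENNReal.ofReal (len (swapG G) j fun i => len G i y * u i) := by
    intro y
    have h5 : Measurable fun u : Fin p → ℝ =>
        ENNReal.ofReal (len (swapG G) j fun i => len G i y * u i) :=
      hj.comp (g := fun w : (Fin q → ℝ) × (Fin p → ℝ) =>
        ENNReal.ofReal (len (swapG G) j fun i => len G i w.1 * w.2 i))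
        (f := fun u : Fin p → ℝ => (y, u)) measurable_prodMk_left
    exact (lintegral_const_mul _ h5).symm
  rw [lintegral_congr e3]
  exact lintegral_lintegral_swap ((hmk.comp measurable_fst).mul hj).aemeasurable

theorem AS_two {p q : ℕ} {G : Fin p → Fin q → Set (ℝ × ℝ)} (hG : ∀ i j, Pl (G i j))
    (hp : 1 ≤ p) (hq : 1 ≤ q) (j : Fin q) : 2 * cm (swapG G) j / cv G ≤
      ∫⁻ u in Icc (0 : Fin p → ℝ) 1,
        ENNReal.ofReal (len (swapG G) j fun i => abar G i * u i) := by
  have hG' := swapG_pl hG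
  have hm : Measurable fun x : Fin p → ℝ => ENNReal.ofReal (len (swapG G) j x) :=
    (len_meas hG' j).ennreal_ofReal
  have hmapA : Measurable fun u : Fin p → ℝ => fun i => abar G i * u i :=
    measurable_pi_lambda _ fun i => (measurable_pi_apply i).const_mul _
  have hm' : Measurable fun u : Fin p → ℝ =>
      ENNReal.ofReal (len (swapG G) j fun i => abar G i * u i) := hm.comp hmapA
  refine ENNReal.div_le_of_le_mul ?_
  have e1 : 2 * cm (swapG G) j = ∫⁻ z in cor G, ENNReal.ofReal (len (swapG G) j z.1) := by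
    rw [cm_eq hG' hp j, lint_cor' hG hp hm]
    refine lintegral_congr fun x => ?_
    rw [mul_comm]
  rw [e1, lint_cor hG hq hm, AS_swap hG j, mul_comm, ← lintegral_const_mul _ hm']
  exact setLIntegral_mono (hm'.const_mul _) fun u hu => jensen hG hp hq j hu

/-- AS (helper74). -/
theorem bip_main {p q : ℕ} {G : Fin p → Fin q → Set (ℝ × ℝ)} (hG : ∀ i j, Pl (G i j))
    (hp : 1 ≤ p) (hq : 1 ≤ q) :
    (∏ i, (2 * cm G i / cv G)) * (∏ j, (2 * cm (swapG G) j / cv G)) ≤ cv G := by
  have hV0 := cv_pos hG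
  have hG' := swapG_pl hG
  have hm : ∀ j, Measurable fun x : Fin p → ℝ => ENNReal.ofReal (len (swapG G) j x) := fun j =>
    (len_meas hG' j).ennreal_ofReal
  have ha0 : ∀ i, 0 ≤ abar G i := fun i => ENNReal.toReal_nonneg
  have hmapA : Measurable fun u : Fin p → ℝ => fun i => abar G i * u i :=
    measurable_pi_lambda _ fun i => (measurable_pi_apply i).const_mul _
  have hm' : ∀ j, Measurable fun u : Fin p → ℝ =>
      ENNReal.ofReal (len (swapG G) j fun i => abar G i * u i) := fun j => (hm j).comp hmapA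
  have h3 : ∏ j, (2 * cm (swapG G) j / cv G) ≤
      ∫⁻ u in Icc (0 : Fin p → ℝ) 1,
        ∏ j, ENNReal.ofReal (len (swapG G) j fun i => abar G i * u i) := by
    refine (Finset.prod_le_prod' fun j _ => AS_two hG hp hq j).trans ?_
    refine harris p (fun j (u : Fin p → ℝ) =>
      ENNReal.ofReal (len (swapG G) j fun i => abar G i * u i)) hm' fun j x hx y hy hxy => ?_
    refine ENNReal.ofReal_le_ofReal (len_anti hG' hp j ?_ ?_)
    · intro i
      exact mul_nonneg (ha0 i) (hx.1 i)
    · intro i
      exact mul_le_mul_of_nonneg_left (hxy i) (ha0 i)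
  have h4 : ∀ i, 2 * cm G i / cv G = ENNReal.ofReal (abar G i) := by
    intro i
    rw [abar, ENNReal.ofReal_toReal]
    exact ENNReal.div_ne_top (ENNReal.mul_ne_top (by simp) (cm_fin hG hp hq i)) hV0
  calc (∏ i, (2 * cm G i / cv G)) * (∏ j, (2 * cm (swapG G) j / cv G))
      ≤ (∏ i, ENNReal.ofReal (abar G i)) * ∫⁻ u in Icc (0 : Fin p → ℝ) 1,
        ∏ j, ENNReal.ofReal (len (swapG G) j fun i => abar G i * u i) := by
        rw [Finset.prod_congr rfl fun i _ => h4 i]
        gcongr
    _ ≤ ∫⁻ x in up p, ∏ j, ENNReal.ofReal (len (swapG G) j x) :=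
        scale_le ha0 (f := fun x => ∏ j, ENNReal.ofReal (len (swapG G) j x))
          (Finset.measurable_prod _ fun j _ => hm j)
    _ = cv (swapG G) := (cv_eq hG' hp).symm
    _ = cv G := cv_swap G

end Vale.Agent.P254B
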