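import Vale.Agent.P254B.Defs

open MeasureTheory Set Vale.Agent.P254
open scoped ENNReal

namespace Vale.Agent.P254B

/-- B1 -/
theorem swapG_pl {p q : ℕ} {G : Fin p → Fin q → Set (ℝ × ℝ)} (hG : ∀ i j, Pl (G i j)) :
    ∀ j i, Pl (swapG G j i) := by
  intro j i
  have e : swapG G j i = (Homeomorph.prodComm ℝ ℝ) ⁻¹' (G i j) := rfl
  refine ⟨?_, ?_, ?_, ?_, ?_⟩
  · rw [e]
    exact (Homeomorph.prodComm ℝ ℝ).isCompact_preimage.2 (hG i j).compact
  · intro z hz w hw a b ha hb hab
    have h := (hG i j).convex (x := (z.2, z.1)) hz (y := (w.2, w.1)) hw ha hb hab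
    exact h
  · rw [e, ← Homeomorph.preimage_interior]
    obtain ⟨z, hz⟩ := (hG i j).int
    exact ⟨(z.2, z.1), hz⟩
  · intro z hz
    exact (hG i j).s2 (z.2, z.1) hz
  · intro z hz
    exact (hG i j).s1 (z.2, z.1) hz

/-- B2. `Icc 0 (sSup ..)`: closed, bounded (some `j` exists), down-closed in `s ≥ 0`: from
`(s, y) ∈ G` and `(-s, y) ∈ G` every `(s', y)` with `|s'| ≤ s` is in `G`. -/
theorem fib_eq {p q : ℕ} {G : Fin p → Fin q → Set (ℝ × ℝ)} (hG : ∀ i j, Pl (G i j)) (hq : 1 ≤ q)
    {i : Fin p} {y : Fin q → ℝ} (h : (fib G i y).Nonempty) : fib G i y = Icc 0 (len G i y) := by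
  have hdown : ∀ (j : Fin q) (s s' t : ℝ), (s, t) ∈ G i j → 0 ≤ s' → s' ≤ s → (s', t) ∈ G i j := by
    intro j s s' t hs h0 h1
    rcases eq_or_lt_of_le (h0.trans h1) with hz | hpos
    · have : s' = s := by linarith
      rw [this]
      exact hs
    · have h2 := (hG i j).s1 _ hs
      have h3 := (hG i j).convex h2 hs (a := (s - s') / (2 * s)) (b := (s + s') / (2 * s))
        (div_nonneg (by linarith) (by linarith)) (div_nonneg (by linarith) (by linarith))
        (by field_simp; ring)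
      have e : ((s - s') / (2 * s)) • (-s, t) + ((s + s') / (2 * s)) • (s, t) = (s', t) := by
        rw [Prod.smul_mk, Prod.smul_mk, Prod.mk_add_mk, Prod.mk.injEq]
        simp only [smul_eq_mul]
        constructor
        · field_simp
          ring
        · field_simp
          ring
      rw [e] at h3
      exact h3
  have hclosed : IsClosed (fib G i y) := by
    have e : fib G i y = Ici 0 ∩ ⋂ j, (fun s : ℝ => (s, y j)) ⁻¹' (G i j) := by
      ext s
      simp only [fib, mem_inter_iff, mem_Ici, mem_iInter, mem_preimage]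
      exact Iff.rfl
    rw [e]
    refine isClosed_Ici.inter (isClosed_iInter fun j => ?_)
    exact (hG i j).compact.isClosed.preimage (by fun_prop)
  have hbdd : BddAbove (fib G i y) := by
    have h1 := ((hG i ⟨0, hq⟩).compact.image continuous_fst).bddAbove
    refine h1.mono ?_
    intro s hs
    exact ⟨(s, y ⟨0, hq⟩), hs.2 _, rfl⟩
  have hmem : sSup (fib G i y) ∈ fib G i y := hclosed.csSup_mem h hbdd
  have e : fib G i y = Icc 0 (sSup (fib G i y)) := by
    apply Subset.antisymm
    · intro s hs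
      exact ⟨hs.1, le_csSup hbdd hs⟩
    · intro s hs
      exact ⟨hs.1, fun j => hdown j _ _ _ (hmem.2 j) hs.1 hs.2⟩
  have hlen : len G i y = sSup (fib G i y) := by
    unfold len
    have h1 : volume (fib G i y) = volume (Icc 0 (sSup (fib G i y))) := by rw [← e]
    rw [h1, Real.volume_Icc, sub_zero, ENNReal.toReal_ofReal hmem.1]
  rw [hlen]
  exact e

/-- B3 -/
theorem fib_ne_top {p q : ℕ} {G : Fin p → Fin q → Set (ℝ × ℝ)} (hG : ∀ i j, Pl (G i j))
    (hq : 1 ≤ q) (i : Fin p) (y : Fin q → ℝ) : volume (fib G i y) ≠ ∞ := by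
  rcases (fib G i y).eq_empty_or_nonempty with h | h
  · rw [h, measure_empty]
    exact ENNReal.zero_ne_top
  · rw [fib_eq hG hq h, Real.volume_Icc]
    exact ENNReal.ofReal_ne_top

/-- B4 -/
theorem len_nonneg {p q : ℕ} (G : Fin p → Fin q → Set (ℝ × ℝ)) (i : Fin p) (y : Fin q → ℝ) :
    0 ≤ len G i y := ENNReal.toReal_nonneg

/-- B5. measurability: `{(s, y)}` closed, `measurable_measure_prodMk_right` or `_left` -/
theorem len_meas {p q : ℕ} {G : Fin p → Fin q → Set (ℝ × ℝ)} (hG : ∀ i j, Pl (G i j))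
    (i : Fin p) : Measurable fun y : Fin q → ℝ => len G i y := by
  have hT : MeasurableSet {z : (Fin q → ℝ) × ℝ | 0 ≤ z.2 ∧ ∀ j, (z.2, z.1 j) ∈ G i j} := by
    have h1 : IsClosed {z : (Fin q → ℝ) × ℝ | 0 ≤ z.2 ∧ ∀ j, (z.2, z.1 j) ∈ G i j} := by
      have e : {z : (Fin q → ℝ) × ℝ | 0 ≤ z.2 ∧ ∀ j, (z.2, z.1 j) ∈ G i j} =
          {z : (Fin q → ℝ) × ℝ | 0 ≤ z.2} ∩
            ⋂ j, (fun z : (Fin q → ℝ) × ℝ => (z.2, z.1 j)) ⁻¹' (G i j) := by
        ext z
        simp
      rw [e]
      refine (isClosed_le continuous_const continuous_snd).inter (isClosed_iInter fun j => ?_)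
      exact (hG i j).compact.isClosed.preimage
        (continuous_snd.prodMk ((continuous_apply j).comp continuous_fst))
    exact h1.measurableSet
  exact (measurable_measure_prodMk_left (ν := (volume : Measure ℝ)) hT).ennreal_toReal

theorem B6_seg {G : Set (ℝ × ℝ)} (hG : Pl G) {s a b : ℝ} (ha : 0 ≤ a) (hab : a ≤ b)
    (h : (s, b) ∈ G) : (s, a) ∈ G := by
  have h2 : (s, -b) ∈ G := hG.s2 (s, b) h
  rcases eq_or_lt_of_le (ha.trans hab) with hb | hb
  · have : a = b := le_antisymm hab (hb ▸ ha)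
    rw [this]
    exact h
  · have h3 := hG.convex h h2 (a := (b + a) / (2 * b)) (b := (b - a) / (2 * b))
      (div_nonneg (by linarith) (by linarith)) (div_nonneg (by linarith) (by linarith))
      (by field_simp; ring)
    have h4 : ((b + a) / (2 * b)) • ((s, b) : ℝ × ℝ) + ((b - a) / (2 * b)) • ((s, -b) : ℝ × ℝ) =
        (s, a) := by
      apply Prod.ext
      · change (b + a) / (2 * b) * s + (b - a) / (2 * b) * s = s
        field_simp
        ring
      · change (b + a) / (2 * b) * b + (b - a) / (2 * b) * (-b) = a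
        field_simp
        ring
    rwa [h4] at h3

/-- B6. antitone on the positive orthant -/
theorem len_anti {p q : ℕ} {G : Fin p → Fin q → Set (ℝ × ℝ)} (hG : ∀ i j, Pl (G i j))
    (hq : 1 ≤ q) (i : Fin p) {y y' : Fin q → ℝ} (h0 : ∀ j, 0 ≤ y j) (h : ∀ j, y j ≤ y' j) :
    len G i y' ≤ len G i y := by
  unfold len
  refine ENNReal.toReal_mono (fib_ne_top hG hq i y) (measure_mono ?_)
  rintro s ⟨hs, hs2⟩
  exact ⟨hs, fun j => B6_seg (hG i j) (h0 j) (h j) (hs2 j)⟩

/-- B7 -/
theorem cor_meas {p q : ℕ} {G : Fin p → Fin q → Set (ℝ × ℝ)} (hG : ∀ i j, Pl (G i j)) :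
    MeasurableSet (cor G) := by
  have h1 : IsClosed (cor G) := by
    have e : cor G = (⋂ i, {z : (Fin p → ℝ) × (Fin q → ℝ) | 0 ≤ z.1 i}) ∩
        ((⋂ j, {z : (Fin p → ℝ) × (Fin q → ℝ) | 0 ≤ z.2 j}) ∩
          ⋂ i, ⋂ j, (fun z : (Fin p → ℝ) × (Fin q → ℝ) => (z.1 i, z.2 j)) ⁻¹' (G i j)) := by
      ext z
      simp [cor]
    rw [e]
    refine (isClosed_iInter fun i => ?_).inter ((isClosed_iInter fun j => ?_).inter
      (isClosed_iInter fun i => isClosed_iInter fun j => ?_))
    · exact isClosed_le continuous_const ((continuous_apply i).comp continuous_fst)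
    · exact isClosed_le continuous_const ((continuous_apply j).comp continuous_snd)
    · exact (hG i j).compact.isClosed.preimage
        (((continuous_apply i).comp continuous_fst).prodMk
          ((continuous_apply j).comp continuous_snd))
  exact h1.measurableSet

end Vale.Agent.P254B
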