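import Vale.Agent.P254U.Defs

open MeasureTheory Set Vale.Agent.P254
open scoped ENNReal

namespace Vale.Agent.P254B

/-- a planar convex body symmetric in both coordinate axes -/
structure Pl (G : Set (ℝ × ℝ)) : Prop where
  compact : IsCompact G
  convex : Convex ℝ G
  int : (interior G).Nonempty
  s1 : ∀ z ∈ G, (-z.1, z.2) ∈ G
  s2 : ∀ z ∈ G, (z.1, -z.2) ∈ G

/-- the intersection of the cylinders over `G i j` on the coordinates `i` and `p + j` -/
def bip {p q : ℕ} (G : Fin p → Fin q → Set (ℝ × ℝ)) : Set (Fin (p + q) → ℝ) :=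
  {x | ∀ i j, (x (Fin.castAdd q i), x (Fin.natAdd p j)) ∈ G i j}

/-- the positive orthant -/
def up (p : ℕ) : Set (Fin p → ℝ) := {x | ∀ i, 0 ≤ x i}

/-- admissible values of the `i`-th coordinate of the first group, given the second group -/
def fib {p q : ℕ} (G : Fin p → Fin q → Set (ℝ × ℝ)) (i : Fin p) (y : Fin q → ℝ) : Set ℝ :=
  {s | 0 ≤ s ∧ ∀ j, (s, y j) ∈ G i j}

/-- the length of `fib` -/
noncomputable def len {p q : ℕ} (G : Fin p → Fin q → Set (ℝ × ℝ)) (i : Fin p)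
    (y : Fin q → ℝ) : ℝ := (volume (fib G i y)).toReal

/-- exchange of the two groups -/
def swapG {p q : ℕ} (G : Fin p → Fin q → Set (ℝ × ℝ)) : Fin q → Fin p → Set (ℝ × ℝ) :=
  fun j i => {z | (z.2, z.1) ∈ G i j}

/-- the positive part of `bip G`, as a subset of the product -/
def cor {p q : ℕ} (G : Fin p → Fin q → Set (ℝ × ℝ)) : Set ((Fin p → ℝ) × (Fin q → ℝ)) :=
  {z | (∀ i, 0 ≤ z.1 i) ∧ (∀ j, 0 ≤ z.2 j) ∧ ∀ i j, (z.1 i, z.2 j) ∈ G i j}

/-- volume of `cor` -/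
noncomputable def cv {p q : ℕ} (G : Fin p → Fin q → Set (ℝ × ℝ)) : ℝ≥0∞ := volume (cor G)

/-- first moments of `cor`, first group -/
noncomputable def cm {p q : ℕ} (G : Fin p → Fin q → Set (ℝ × ℝ)) (i : Fin p) : ℝ≥0∞ :=
  ∫⁻ z in cor G, ENNReal.ofReal (z.1 i)

end Vale.Agent.P254B
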