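import Vale.Agent.P254B.Base

open MeasureTheory Set Vale.Agent.P254
open scoped ENNReal

namespace Vale.Agent.P254B

theorem F1_scale {p : ℕ} {f : (Fin p → ℝ) → ℝ≥0∞} (hf : Measurable f) (l : Fin p → ℝ)
    (hl : ∀ i, 0 ≤ l i) :
    ∫⁻ x in Icc (0 : Fin p → ℝ) l, f x = (∏ k, ENNReal.ofReal (l k)) *
      ∫⁻ u in Icc (0 : Fin p → ℝ) 1, f (fun i => l i * u i) := by
  by_cases h0 : ∃ i, l i = 0
  · obtain ⟨i, hi⟩ := h0
    have h1 : ∏ k, ENNReal.ofReal (l k) = 0 :=
      Finset.prod_eq_zero (Finset.mem_univ i) (by rw [hi]; simp)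
    rw [h1, zero_mul]
    apply setLIntegral_measure_zero
    rw [Real.volume_Icc_pi]
    exact Finset.prod_eq_zero (Finset.mem_univ i) (by simp [hi])
  · push Not at h0
    have hpos : ∀ i, 0 < l i := fun i => lt_of_le_of_ne (hl i) (Ne.symm (h0 i))
    have hdet : (Matrix.diagonal l).det ≠ 0 := by
      rw [Matrix.det_diagonal]
      exact Finset.prod_ne_zero_iff.mpr (fun i _ => (hpos i).ne')
    have hvol := Real.smul_map_diagonal_volume_pi hdet
    have hmeas : Measurable (Matrix.toLin' (Matrix.diagonal l)) :=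
      (LinearMap.continuous_on_pi _).measurable
    rw [← lintegral_indicator measurableSet_Icc, ← lintegral_indicator measurableSet_Icc]
    conv_lhs => rw [← hvol]
    rw [lintegral_smul_measure, lintegral_map (hf.indicator measurableSet_Icc) hmeas, smul_eq_mul]
    congr 1
    · rw [Matrix.det_diagonal, abs_of_nonneg (Finset.prod_nonneg fun i _ => hl i),
        ENNReal.ofReal_prod_of_nonneg (fun i _ => hl i)]
    · refine lintegral_congr fun u => ?_
      have hu : Matrix.toLin' (Matrix.diagonal l) u = fun i => l i * u i := by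
        ext i
        simp [Matrix.toLin'_apply, Matrix.mulVec_diagonal]
      rw [hu]
      have hiff : (fun i => l i * u i) ∈ Icc (0 : Fin p → ℝ) l ↔ u ∈ Icc (0 : Fin p → ℝ) 1 := by
        simp only [mem_Icc, Pi.le_def, Pi.zero_apply, Pi.one_apply]
        constructor
        · rintro ⟨h1, h2⟩
          refine ⟨fun i => ?_, fun i => ?_⟩
          · exact nonneg_of_mul_nonneg_right (h1 i) (hpos i)
          · exact le_of_mul_le_mul_left (by rw [mul_one]; exact h2 i) (hpos i)
        · rintro ⟨h1, h2⟩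
          refine ⟨fun i => mul_nonneg (hl i) (h1 i), fun i => ?_⟩
          exact mul_le_of_le_one_right (hl i) (h2 i)
      by_cases hmem : u ∈ Icc (0 : Fin p → ℝ) 1
      · rw [indicator_of_mem hmem, indicator_of_mem (hiff.mpr hmem)]
      · rw [indicator_of_notMem hmem, indicator_of_notMem (fun h => hmem (hiff.mp h))]

theorem F1_section {p q : ℕ} {G : Fin p → Fin q → Set (ℝ × ℝ)} (hG : ∀ i j, Pl (G i j))
    (hq : 1 ≤ q) {f : (Fin p → ℝ) → ℝ≥0∞} (hf : Measurable f) (y : Fin q → ℝ) :
    ∫⁻ x in Set.pi univ (fun i => fib G i y), f x = (∏ k, ENNReal.ofReal (len G k y)) *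
      ∫⁻ u in Icc (0 : Fin p → ℝ) 1, f (fun i => len G i y * u i) := by
  by_cases h : ∀ i, (fib G i y).Nonempty
  · have h1 : Set.pi univ (fun i => fib G i y)
        = Icc (0 : Fin p → ℝ) (fun i => len G i y) := by
      rw [← Set.pi_univ_Icc]
      exact Set.pi_congr rfl (fun i _ => fib_eq hG hq (h i))
    rw [h1]
    exact F1_scale hf _ (fun i => len_nonneg G i y)
  · push Not at h
    obtain ⟨i, hi⟩ := h
    have h1 : Set.pi univ (fun i => fib G i y) = ∅ := by
      rw [Set.univ_pi_eq_empty_iff]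
      exact ⟨i, hi⟩
    have h2 : ∏ k, ENNReal.ofReal (len G k y) = 0 := by
      refine Finset.prod_eq_zero (Finset.mem_univ i) ?_
      rw [len, hi]
      simp
    rw [h1, h2]
    simp

/-- F1. Fubini; the section at `y ∈ up q` is `Set.pi univ (fun i => fib G i y)`, which is the
box `∏ Icc 0 (len G i y)` or empty (then some `len` is `0`, volume `0`);
`Measure.pi_pi` / scaling `x i = len G i y * u i`. -/
theorem lint_cor {p q : ℕ} {G : Fin p → Fin q → Set (ℝ × ℝ)} (hG : ∀ i j, Pl (G i j))
    (hq : 1 ≤ q) {f : (Fin p → ℝ) → ℝ≥0∞} (hf : Measurable f) :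
    ∫⁻ z in cor G, f z.1 = ∫⁻ y in up q, (∏ k, ENNReal.ofReal (len G k y)) *
      ∫⁻ u in Icc (0 : Fin p → ℝ) 1, f (fun i => len G i y * u i) := by
  have hcor : MeasurableSet (cor G) := cor_meas hG
  have hup : MeasurableSet (up q) := by
    have : up q = ⋂ i : Fin q, {x : Fin q → ℝ | 0 ≤ x i} := by
      ext x; simp [up]
    rw [this]
    exact MeasurableSet.iInter fun i => measurableSet_le measurable_const (measurable_pi_apply i)
  have hmf : Measurable (fun z : (Fin p → ℝ) × (Fin q → ℝ) => f z.1) := hf.comp measurable_fst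
  rw [← lintegral_indicator hcor, ← lintegral_indicator hup, Measure.volume_eq_prod,
    lintegral_prod_symm _ (hmf.indicator hcor).aemeasurable]
  refine lintegral_congr fun y => ?_
  by_cases hy : y ∈ up q
  · rw [indicator_of_mem hy, ← F1_section hG hq hf y]
    have hpi : MeasurableSet (Set.pi univ (fun i => fib G i y)) := by
      have : Set.pi univ (fun i => fib G i y) = (fun x => (x, y)) ⁻¹' (cor G) := by
        ext x
        simp only [Set.mem_pi, mem_univ, true_implies, fib, mem_setOf_eq, mem_preimage, cor]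
        constructor
        · intro h
          exact ⟨fun i => (h i).1, hy, fun i j => (h i).2 j⟩
        · intro h i
          exact ⟨h.1 i, fun j => h.2.2 i j⟩
      rw [this]
      exact measurable_prodMk_right hcor
    rw [← lintegral_indicator hpi]
    refine lintegral_congr fun x => ?_
    have hiff : (x, y) ∈ cor G ↔ x ∈ Set.pi univ (fun i => fib G i y) := by
      simp only [Set.mem_pi, mem_univ, true_implies, fib, mem_setOf_eq, cor]
      constructor
      · intro h i
        exact ⟨h.1 i, fun j => h.2.2 i j⟩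
      · intro h
        exact ⟨fun i => (h i).1, hy, fun i j => (h i).2 j⟩
    by_cases hx : x ∈ Set.pi univ (fun i => fib G i y)
    · rw [indicator_of_mem hx, indicator_of_mem (hiff.mpr hx)]
    · rw [indicator_of_notMem hx, indicator_of_notMem (fun h => hx (hiff.mp h))]
  · rw [indicator_of_notMem hy]
    refine (lintegral_congr fun x => ?_).trans lintegral_zero
    rw [indicator_of_notMem]
    intro h
    exact hy h.2.1

/-- F2 (corollary of F1 with `f = 1`) -/
theorem cv_eq {p q : ℕ} {G : Fin p → Fin q → Set (ℝ × ℝ)} (hG : ∀ i j, Pl (G i j))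
    (hq : 1 ≤ q) : cv G = ∫⁻ y in up q, ∏ k, ENNReal.ofReal (len G k y) := by
  have h := lint_cor hG hq (f := fun _ => 1) measurable_const
  rw [setLIntegral_one] at h
  unfold cv
  rw [h]
  refine lintegral_congr fun y => ?_
  rw [setLIntegral_one, Real.volume_Icc_pi]
  simp

theorem F3_half (p : ℕ) (i : Fin p) :
    ∫⁻ u in Icc (0 : Fin p → ℝ) 1, ENNReal.ofReal (u i) = 2⁻¹ := by
  have hpr : IsProbabilityMeasure ((volume : Measure ℝ).restrict (Icc (0 : ℝ) 1)) := ⟨by simp⟩
  have h1 : (volume : Measure (Fin p → ℝ)).restrict (Icc (0 : Fin p → ℝ) 1) =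
      Measure.pi fun _ : Fin p => (volume : Measure ℝ).restrict (Icc (0 : ℝ) 1) := by
    rw [← Measure.restrict_pi_pi, volume_pi]
    congr 1
    rw [← Set.pi_univ_Icc]
    rfl
  rw [h1]
  have h2 := measurePreserving_eval
    (fun _ : Fin p => (volume : Measure ℝ).restrict (Icc (0 : ℝ) 1)) i
  have h3 := h2.lintegral_comp (f := fun t : ℝ => ENNReal.ofReal t) ENNReal.measurable_ofReal
  have h4 : ∫⁻ a, ENNReal.ofReal (a i)
      ∂(Measure.pi fun _ : Fin p => (volume : Measure ℝ).restrict (Icc (0 : ℝ) 1)) =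
      ∫⁻ t in Icc (0 : ℝ) 1, ENNReal.ofReal t := h3
  rw [h4]
  have h5 : ENNReal.ofReal (∫ t in Icc (0 : ℝ) 1, t) = ∫⁻ t in Icc (0 : ℝ) 1, ENNReal.ofReal t := by
    refine ofReal_integral_eq_lintegral_ofReal ?_ ?_
    · exact (continuous_id.integrableOn_Icc)
    · refine (ae_restrict_iff' measurableSet_Icc).2 (Filter.Eventually.of_forall fun t ht => ht.1)
  rw [← h5, integral_Icc_eq_integral_Ioc, ← intervalIntegral.integral_of_le zero_le_one,
    integral_id]
  rw [show ((1 : ℝ) ^ 2 - 0 ^ 2) / 2 = 2⁻¹ by norm_num, ENNReal.ofReal_inv_of_pos (by norm_num)]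
  norm_num

/-- F3 (corollary of F1 with `f x = ofReal (x i)`; `∫⁻ u in Icc 0 1, ofReal (u i) = 1/2`) -/
theorem cm_eq {p q : ℕ} {G : Fin p → Fin q → Set (ℝ × ℝ)} (hG : ∀ i j, Pl (G i j))
    (hq : 1 ≤ q) (i : Fin p) :
    2 * cm G i = ∫⁻ y in up q, (∏ k, ENNReal.ofReal (len G k y)) * ENNReal.ofReal (len G i y) := by
  have h := lint_cor hG hq (f := fun x => ENNReal.ofReal (x i)) (by fun_prop)
  unfold cm
  rw [h, ← lintegral_const_mul' 2 _ (by norm_num)]
  refine lintegral_congr fun y => ?_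
  have e : ∀ u : Fin p → ℝ, ENNReal.ofReal (len G i y * u i) =
      ENNReal.ofReal (len G i y) * ENNReal.ofReal (u i) := fun u =>
    ENNReal.ofReal_mul (len_nonneg G i y)
  simp only [e]
  rw [lintegral_const_mul' _ _ ENNReal.ofReal_ne_top, F3_half]
  have h2 : (2 : ℝ≥0∞) * 2⁻¹ = 1 := ENNReal.mul_inv_cancel (by norm_num) (by norm_num)
  calc 2 * ((∏ k, ENNReal.ofReal (len G k y)) * (ENNReal.ofReal (len G i y) * 2⁻¹))
      = (2 * 2⁻¹) * ((∏ k, ENNReal.ofReal (len G k y)) * ENNReal.ofReal (len G i y)) := by ring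
    _ = _ := by rw [h2, one_mul]

end Vale.Agent.P254B
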