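import Vale.Agent.P254B.Fub

open MeasureTheory Set Vale.Agent.P254
open scoped ENNReal

namespace Vale.Agent.P254B

/-- the average side lengths `2 M_i / V` -/
noncomputable def abar {p q : ℕ} (G : Fin p → Fin q → Set (ℝ × ℝ)) (i : Fin p) : ℝ :=
  (2 * cm G i / cv G).toReal

/-- the origin is an interior point -/
theorem JEN_zero {G : Set (ℝ × ℝ)} (hG : Pl G) : (0 : ℝ × ℝ) ∈ interior G := by
  obtain ⟨z, hz⟩ := hG.int
  have hz' : z ∈ G := interior_subset hz
  have h1 : -z ∈ G := hG.s2 _ (hG.s1 z hz')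
  have := hG.convex.combo_interior_self_mem_interior hz h1 (a := (1 / 2 : ℝ)) (b := (1 / 2 : ℝ))
    (by norm_num) (by norm_num) (by norm_num)
  have e : (1 / 2 : ℝ) • z + (1 / 2 : ℝ) • (-z) = 0 := by
    rw [smul_neg, add_neg_cancel]
  rwa [e] at this

/-- J1. `0 < V < ∞` and the moments are finite. -/
theorem cv_pos {p q : ℕ} {G : Fin p → Fin q → Set (ℝ × ℝ)} (hG : ∀ i j, Pl (G i j)) :
    cv G ≠ 0 := by
  set U : Set ((Fin p → ℝ) × (Fin q → ℝ)) :=
    {z | (∀ i, 0 < z.1 i) ∧ (∀ j, 0 < z.2 j) ∧ ∀ i j, (z.1 i, z.2 j) ∈ interior (G i j)} with hU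
  have hUo : IsOpen U := by
    have e : U = (⋂ i, {z | 0 < z.1 i}) ∩ ((⋂ j, {z | 0 < z.2 j}) ∩
        ⋂ i, ⋂ j, {z | (z.1 i, z.2 j) ∈ interior (G i j)}) := by
      ext z
      simp [hU]
    rw [e]
    refine IsOpen.inter (isOpen_iInter_of_finite fun i => ?_)
      (IsOpen.inter (isOpen_iInter_of_finite fun j => ?_)
        (isOpen_iInter_of_finite fun i => isOpen_iInter_of_finite fun j => ?_))
    · exact isOpen_lt continuous_const (by fun_prop)
    · exact isOpen_lt continuous_const (by fun_prop)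
    · exact isOpen_interior.preimage (by fun_prop)
  have hne : U.Nonempty := by
    have h1 : ∀ i j, ∀ᶠ t in nhdsWithin (0 : ℝ) (Ioi 0), (t, t) ∈ interior (G i j) := by
      intro i j
      have hc : Filter.Tendsto (fun t : ℝ => (t, t)) (nhds 0) (nhds ((0 : ℝ), (0 : ℝ))) :=
        (Continuous.prodMk continuous_id continuous_id).tendsto 0
      exact (hc.eventually (isOpen_interior.mem_nhds (JEN_zero (hG i j)))).filter_mono
        nhdsWithin_le_nhds
    have h2 : ∀ᶠ t in nhdsWithin (0 : ℝ) (Ioi 0), ∀ i j, (t, t) ∈ interior (G i j) :=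
      Filter.eventually_all.2 fun i => Filter.eventually_all.2 fun j => h1 i j
    obtain ⟨t, ht, ht0⟩ := (h2.and self_mem_nhdsWithin).exists
    exact ⟨(fun _ => t, fun _ => t), fun _ => ht0, fun _ => ht0, fun i j => ht i j⟩
  have hsub : U ⊆ cor G := fun z hz =>
    ⟨fun i => (hz.1 i).le, fun j => (hz.2.1 j).le, fun i j => interior_subset (hz.2.2 i j)⟩
  have hpos : 0 < volume U := hUo.measure_pos _ hne
  exact (lt_of_lt_of_le hpos (measure_mono hsub)).ne'

/-- a common bound -/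
theorem JEN_bdd {p q : ℕ} {G : Fin p → Fin q → Set (ℝ × ℝ)} (hG : ∀ i j, Pl (G i j)) :
    ∃ R : ℝ, 0 ≤ R ∧ ∀ i j, ∀ z ∈ G i j, |z.1| ≤ R ∧ |z.2| ≤ R := by
  have h1 : ∀ i j, ∃ R : ℝ, ∀ z ∈ G i j, ‖z‖ ≤ R := fun i j => by
    obtain ⟨R, hR⟩ := (hG i j).compact.isBounded.exists_norm_le
    exact ⟨R, hR⟩
  choose R hR using h1
  refine ⟨∑ i, ∑ j, |R i j|, Finset.sum_nonneg fun i _ => Finset.sum_nonneg fun j _ => abs_nonneg _,
    fun i j z hz => ?_⟩
  have h2 : ‖z‖ ≤ ∑ i, ∑ j, |R i j| := by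
    refine (hR i j z hz).trans ((le_abs_self _).trans ?_)
    refine le_trans ?_ (Finset.single_le_sum (f := fun i => ∑ j, |R i j|)
      (fun i _ => Finset.sum_nonneg fun j _ => abs_nonneg _) (Finset.mem_univ i))
    exact Finset.single_le_sum (f := fun j => |R i j|) (fun j _ => abs_nonneg _)
      (Finset.mem_univ j)
  exact ⟨(norm_fst_le z).trans h2, (norm_snd_le z).trans h2⟩

theorem cv_fin {p q : ℕ} {G : Fin p → Fin q → Set (ℝ × ℝ)} (hG : ∀ i j, Pl (G i j))
    (hp : 1 ≤ p) (hq : 1 ≤ q) : cv G ≠ ∞ := by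
  obtain ⟨R, hR0, hR⟩ := JEN_bdd hG
  have hsub : cor G ⊆ Metric.closedBall 0 R := by
    intro z hz
    rw [mem_closedBall_zero_iff]
    refine norm_prod_le_iff.2 ⟨?_, ?_⟩
    · exact (pi_norm_le_iff_of_nonneg hR0).2 fun i => (hR i ⟨0, hq⟩ _ (hz.2.2 i ⟨0, hq⟩)).1
    · exact (pi_norm_le_iff_of_nonneg hR0).2 fun j => (hR ⟨0, hp⟩ j _ (hz.2.2 ⟨0, hp⟩ j)).2
  exact ((measure_mono hsub).trans_lt (isCompact_closedBall _ _).measure_lt_top).ne

theorem cm_fin {p q : ℕ} {G : Fin p → Fin q → Set (ℝ × ℝ)} (hG : ∀ i j, Pl (G i j))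
    (hp : 1 ≤ p) (hq : 1 ≤ q) (i : Fin p) : cm G i ≠ ∞ := by
  obtain ⟨R, hR0, hR⟩ := JEN_bdd hG
  have h1 : cm G i ≤ ∫⁻ z in cor G, ENNReal.ofReal R :=
    setLIntegral_mono' (cor_meas hG) fun z hz =>
      ENNReal.ofReal_le_ofReal ((le_abs_self _).trans (hR i ⟨0, hq⟩ _ (hz.2.2 i ⟨0, hq⟩)).1)
  rw [lintegral_const, Measure.restrict_apply_univ] at h1
  exact (h1.trans_lt (ENNReal.mul_lt_top ENNReal.ofReal_lt_top (cv_fin hG hp hq).lt_top)).ne

/-- bound of the lengths -/
theorem JEN_len_le {p q : ℕ} {G : Fin p → Fin q → Set (ℝ × ℝ)} (hq : 1 ≤ q) {R : ℝ} (hR0 : 0 ≤ R)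
    (hR : ∀ i j, ∀ z ∈ G i j, |z.1| ≤ R) (i : Fin p) (y : Fin q → ℝ) : len G i y ≤ R := by
  have h1 : fib G i y ⊆ Icc 0 R := fun s hs =>
    ⟨hs.1, (le_abs_self _).trans (hR i ⟨0, hq⟩ _ (hs.2 ⟨0, hq⟩))⟩
  have h2 := ENNReal.toReal_mono (by simp) (measure_mono h1 (μ := volume))
  rwa [Real.volume_Icc, sub_zero, ENNReal.toReal_ofReal hR0] at h2

/-- J2. Jensen. Let `ν` be the probability measure on `up q` with density
`∏ len G k y / V`. For `ν`-a.e. `y` (all `len G k y > 0`) the point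
`((len G i y * u i)_i, t)`, `t = len (swapG G) j (fun i => len G i y * u i)`, is in the closed
convex set `{(x, t) | ∀ i, (x i, t) ∈ G i j}` (`fib_eq`), hence so is its `ν`-integral
(`Convex.integral_mem`), which is `((abar G i * u i)_i, ∫ t dν)`; then `∫ t dν` is in
`fib (swapG G) j (abar * u)`, so it is at most its length (`fib_eq`). -/
theorem jensen {p q : ℕ} {G : Fin p → Fin q → Set (ℝ × ℝ)} (hG : ∀ i j, Pl (G i j))
    (hp : 1 ≤ p) (hq : 1 ≤ q) (j : Fin q) {u : Fin p → ℝ} (hu : u ∈ Icc (0 : Fin p → ℝ) 1) :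
    ∫⁻ y in up q, (∏ k, ENNReal.ofReal (len G k y)) *
        ENNReal.ofReal (len (swapG G) j (fun i => len G i y * u i)) ≤
      cv G * ENNReal.ofReal (len (swapG G) j (fun i => abar G i * u i)) := by
  obtain ⟨R, hR0, hR⟩ := JEN_bdd hG
  have hS := swapG_pl hG
  set W : (Fin q → ℝ) → ℝ≥0∞ := fun y => ∏ k, ENNReal.ofReal (len G k y) with hW
  have hWm : Measurable W := by
    rw [hW]
    exact Finset.measurable_prod _ fun k _ => (len_meas hG k).ennreal_ofReal
  set t : (Fin q → ℝ) → ℝ := fun y => len (swapG G) j (fun i => len G i y * u i) with ht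
  have htm : Measurable t := by
    rw [ht]
    exact (len_meas hS j).comp (measurable_pi_lambda _ fun i => (len_meas hG i).mul_const _)
  set μ : Measure (Fin q → ℝ) := (volume.restrict (up q)).withDensity W with hμ
  have hmass : μ univ = cv G := by
    rw [hμ, withDensity_apply _ MeasurableSet.univ, Measure.restrict_univ, cv_eq hG hq]
  have hV0 : cv G ≠ 0 := cv_pos hG
  have hVt : cv G ≠ ∞ := cv_fin hG hp hq
  have : IsFiniteMeasure μ := ⟨by rw [hmass]; exact hVt.lt_top⟩
  have : NeZero μ := ⟨fun h => hV0 (by rw [← hmass, h]; simp)⟩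
  have hint : ∀ f : (Fin q → ℝ) → ℝ≥0∞, Measurable f →
      ∫⁻ y, f y ∂μ = ∫⁻ y in up q, W y * f y := by
    intro f hf
    rw [hμ, lintegral_withDensity_eq_lintegral_mul _ hWm hf]
    rfl
  have hupm : MeasurableSet (up q) := by
    have e : up q = ⋂ i, {x : Fin q → ℝ | 0 ≤ x i} := by
      ext x; simp [up]
    rw [e]
    exact MeasurableSet.iInter fun i => measurableSet_le measurable_const (measurable_pi_apply i)
  have hae : ∀ᵐ y ∂μ, ∀ i, (len G i y * u i, t y) ∈ G i j := by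
    have h1 : ∀ᵐ y ∂μ, W y ≠ 0 := by
      rw [hμ, ae_withDensity_iff hWm]
      exact Filter.Eventually.of_forall fun y h => h
    have h2 : ∀ᵐ y ∂μ, y ∈ up q := by
      have h3 : ∀ᵐ y ∂(volume.restrict (up q)), y ∈ up q := ae_restrict_mem hupm
      exact (withDensity_absolutelyContinuous _ _).ae_le h3
    filter_upwards [h1, h2] with y hy hyu
    have hlen : ∀ k, (fib G k y).Nonempty := by
      intro k
      by_contra hcon
      rw [not_nonempty_iff_eq_empty] at hcon
      apply hy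
      refine Finset.prod_eq_zero (Finset.mem_univ k) ?_
      simp [len, hcon]
    have hx : ∀ k, ∀ l, (len G k y * u k, y l) ∈ G k l := by
      intro k l
      have h3 : len G k y * u k ∈ fib G k y := by
        rw [fib_eq hG hq (hlen k)]
        exact ⟨mul_nonneg (len_nonneg _ _ _) (hu.1 k),
          mul_le_of_le_one_right (len_nonneg _ _ _) (hu.2 k)⟩
      exact h3.2 l
    have h4 : (fib (swapG G) j (fun i => len G i y * u i)).Nonempty :=
      ⟨y j, hyu j, fun i => hx i j⟩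
    have h5 : t y ∈ fib (swapG G) j (fun i => len G i y * u i) := by
      rw [fib_eq hS hp h4]
      exact ⟨len_nonneg _ _ _, le_rfl⟩
    intro i
    exact h5.2 i
  have hti : Integrable t μ := by
    refine Integrable.of_bound htm.aestronglyMeasurable R (Filter.Eventually.of_forall fun y => ?_)
    rw [Real.norm_eq_abs, abs_of_nonneg (len_nonneg _ _ _)]
    exact JEN_len_le hp hR0 (fun j i z hz => (hR i j (z.2, z.1) hz).2) j _
  have hli : ∀ i, Integrable (fun y => len G i y) μ := by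
    intro i
    refine Integrable.of_bound (len_meas hG i).aestronglyMeasurable R
      (Filter.Eventually.of_forall fun y => ?_)
    rw [Real.norm_eq_abs, abs_of_nonneg (len_nonneg _ _ _)]
    exact JEN_len_le hq hR0 (fun i j z hz => (hR i j _ hz).1) i _
  have hla : ∀ i, (cv G).toReal⁻¹ * ∫ y, len G i y ∂μ = abar G i := by
    intro i
    rw [integral_eq_lintegral_of_nonneg_ae (Filter.Eventually.of_forall fun y => len_nonneg _ _ _)
      (len_meas hG i).aestronglyMeasurable, hint _ (len_meas hG i).ennreal_ofReal, ← cm_eq hG hq i,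
      abar, ENNReal.toReal_div, div_eq_inv_mul]
  set T : ℝ := (cv G).toReal⁻¹ * ∫ y, t y ∂μ with hT
  have hT0 : 0 ≤ T := mul_nonneg (by positivity)
    (integral_nonneg fun y => len_nonneg _ _ _)
  have hmem : ∀ i, (abar G i * u i, T) ∈ G i j := by
    intro i
    have hF : Integrable (fun y => (len G i y * u i, t y)) μ :=
      ((hli i).mul_const (u i)).prodMk hti
    have h1 := (hG i j).convex.average_mem (hG i j).compact.isClosed
      (hae.mono fun y hy => hy i) hF
    have h2 : (⨍ y, (len G i y * u i, t y) ∂μ) = (abar G i * u i, T) := by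
      rw [average_eq, integral_pair ((hli i).mul_const (u i)) hti, integral_mul_const]
      have e : μ.real univ = (cv G).toReal := by
        rw [measureReal_def, hmass]
      rw [e]
      refine Prod.ext ?_ ?_
      · change (cv G).toReal⁻¹ * ((∫ y, len G i y ∂μ) * u i) = abar G i * u i
        rw [← mul_assoc, hla i]
      · rfl
    rwa [h2] at h1
  have hTf : T ∈ fib (swapG G) j (fun i => abar G i * u i) := ⟨hT0, fun i => hmem i⟩
  have hTle : T ≤ len (swapG G) j (fun i => abar G i * u i) := by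
    have h1 := hTf
    rw [fib_eq hS hp ⟨T, hTf⟩] at h1
    exact h1.2
  have hVr : 0 < (cv G).toReal := ENNReal.toReal_pos hV0 hVt
  have e1 : ∫⁻ y in up q, W y * ENNReal.ofReal (t y) = ENNReal.ofReal (∫ y, t y ∂μ) := by
    rw [← hint _ htm.ennreal_ofReal, ofReal_integral_eq_lintegral_ofReal hti
      (Filter.Eventually.of_forall fun y => len_nonneg _ _ _)]
  have e2 : ∫ y, t y ∂μ = (cv G).toReal * T := by
    rw [hT, mul_inv_cancel_left₀ hVr.ne']
  change ∫⁻ y in up q, W y * ENNReal.ofReal (t y) ≤ _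
  rw [e1, e2, ENNReal.ofReal_mul hVr.le, ENNReal.ofReal_toReal hVt]
  gcongr

end Vale.Agent.P254B
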