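import Vale.Agent.P254U.Body

open MeasureTheory Set Vale.Agent.P254 Vale.Agent.P254U
open scoped ENNReal

namespace Vale.Agent.P254B

/-- `MomProp` from the positive part -/
theorem momProp_of_pos {n : ℕ} {K : Set (Fin n → ℝ)} (hK : IsBody K) (hs : Unconditional K)
    (hmain : ∏ i, (2 * (∫⁻ x in pos K, ENNReal.ofReal (x i)) / volume (pos K)) ≤
      volume (pos K)) : MomProp K := by
  have hKm : MeasurableSet K := hK.1.isClosed.measurableSet
  set V := volume (pos K) with hV
  set M : Fin n → ℝ≥0∞ := fun i => ∫⁻ x in pos K, ENNReal.ofReal (x i) with hM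
  have hvol : volume K = 2 ^ n * V := by
    have := orthant0 hKm hs (f := fun _ => 1) measurable_const
    simpa [hV] using this
  have hKfin : volume K ≠ ∞ := hK.1.measure_lt_top.ne
  have hKpos : volume K ≠ 0 := (Measure.measure_pos_of_nonempty_interior volume hK.2.2).ne'
  have hVfin : V ≠ ∞ := by
    intro h
    rw [hvol, h] at hKfin
    simp at hKfin
  have hVpos : V ≠ 0 := by
    intro h
    rw [hvol, h] at hKpos
    simp at hKpos
  have hint : ∀ i, ∫ x in K, |x i| = 2 ^ n * (M i).toReal := by
    intro i
    have hcont : Continuous fun x : Fin n → ℝ => |x i| := by fun_prop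
    rw [integral_eq_lintegral_of_nonneg_ae (Filter.Eventually.of_forall fun x => abs_nonneg _)
      hcont.aestronglyMeasurable]
    have h3 : ∫⁻ x in K, ENNReal.ofReal |x i| = 2 ^ n * M i := by
      have h4 := orthant0 hKm hs (f := fun x => ENNReal.ofReal (x i)) (by fun_prop)
      exact h4
    rw [h3, ENNReal.toReal_mul]
    simp
  have hvolr : (volume K).toReal = 2 ^ n * V.toReal := by
    rw [hvol, ENNReal.toReal_mul]
    simp
  have hv := ENNReal.toReal_pos hVpos hVfin
  have h5 : ∏ i, (2 * (M i).toReal / V.toReal) ≤ V.toReal := by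
    have h3 := ENNReal.toReal_mono hVfin hmain
    rw [ENNReal.toReal_prod] at h3
    simpa [ENNReal.toReal_div, ENNReal.toReal_mul] using h3
  unfold MomProp
  simp only [hint, hvolr]
  have h6 : ∀ i, 4 * (2 ^ n * (M i).toReal / (2 ^ n * V.toReal)) =
      2 * (2 * (M i).toReal / V.toReal) := by
    intro i
    rw [mul_div_mul_left _ _ (by positivity)]
    ring
  simp only [h6]
  rw [Finset.prod_mul_distrib, Finset.prod_const, Finset.card_univ, Fintype.card_fin]
  gcongr

end Vale.Agent.P254B
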