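import Vale.Agent.P254B.Asm
import Vale.Agent.P254U.Body
import Vale.Agent.P254U.ProdU

open MeasureTheory Set Vale.Agent.P254 Vale.Agent.P254U
open scoped ENNReal

namespace Vale.Agent.P254B

private theorem T1_zero_mem {G : Set (ℝ × ℝ)} (hG : Pl G) : (0 : ℝ × ℝ) ∈ interior G := by
  obtain ⟨z, hz⟩ := hG.int
  have h1 : ∀ w ∈ interior G, ((-w.1, w.2) : ℝ × ℝ) ∈ interior G := by
    intro w hw
    have ho : IsOpen ((fun u : ℝ × ℝ => ((-u.1, u.2) : ℝ × ℝ)) ⁻¹' interior G) :=
      isOpen_interior.preimage (by fun_prop)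
    refine (interior_maximal ?_ ho) ?_
    · intro u hu
      have h3 := hG.s1 _ (interior_subset hu)
      simp only [neg_neg] at h3
      exact h3
    · show ((-(-w.1), w.2) : ℝ × ℝ) ∈ interior G
      rw [neg_neg]
      exact hw
  have h2 : ∀ w ∈ interior G, ((w.1, -w.2) : ℝ × ℝ) ∈ interior G := by
    intro w hw
    have ho : IsOpen ((fun u : ℝ × ℝ => ((u.1, -u.2) : ℝ × ℝ)) ⁻¹' interior G) :=
      isOpen_interior.preimage (by fun_prop)
    refine (interior_maximal ?_ ho) ?_
    · intro u hu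
      have h3 := hG.s2 _ (interior_subset hu)
      simp only [neg_neg] at h3
      exact h3
    · show ((w.1, -(-w.2)) : ℝ × ℝ) ∈ interior G
      rw [neg_neg]
      exact hw
  have hc : Convex ℝ (interior G) := hG.convex.interior
  have h4 : ((0, z.2) : ℝ × ℝ) ∈ interior G := by
    have h5 := hc hz (h1 z hz) (by norm_num : (0 : ℝ) ≤ 1 / 2) (by norm_num : (0 : ℝ) ≤ 1 / 2)
      (by norm_num)
    have h6 : (1 / 2 : ℝ) • z + (1 / 2 : ℝ) • ((-z.1, z.2) : ℝ × ℝ) = (0, z.2) := by
      ext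
      · simp
      · simp only [Prod.snd_add, Prod.smul_snd, smul_eq_mul]
        ring
    rw [h6] at h5
    exact h5
  have h7 := hc h4 (h2 _ h4) (by norm_num : (0 : ℝ) ≤ 1 / 2) (by norm_num : (0 : ℝ) ≤ 1 / 2)
    (by norm_num)
  have h8 : (1 / 2 : ℝ) • ((0, z.2) : ℝ × ℝ) + (1 / 2 : ℝ) • ((0, -z.2) : ℝ × ℝ) = 0 := by
    ext
    · simp
    · simp
  simp only at h7
  rw [h8] at h7
  exact h7

/-- T1 -/
theorem bip_body {p q : ℕ} {G : Fin p → Fin q → Set (ℝ × ℝ)} (hG : ∀ i j, Pl (G i j))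
    (hp : 1 ≤ p) (hq : 1 ≤ q) : IsBody (bip G) := by
  have hcont : ∀ (i : Fin p) (j : Fin q), Continuous
      (fun x : Fin (p + q) → ℝ => ((x (Fin.castAdd q i), x (Fin.natAdd p j)) : ℝ × ℝ)) :=
    fun i j => (continuous_apply _).prodMk (continuous_apply _)
  have heq : bip G = ⋂ i : Fin p, ⋂ j : Fin q,
      (fun x : Fin (p + q) → ℝ => ((x (Fin.castAdd q i), x (Fin.natAdd p j)) : ℝ × ℝ)) ⁻¹'
        (G i j) := by
    ext x
    simp only [bip, mem_ofPred_eq, mem_iInter, mem_preimage]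
  refine ⟨?_, ?_, ?_⟩
  · -- compact
    have hcl : IsClosed (bip G) := by
      rw [heq]
      exact isClosed_iInter fun i => isClosed_iInter fun j =>
        (hG i j).compact.isClosed.preimage (hcont i j)
    have i0 : Fin p := ⟨0, hp⟩
    have j0 : Fin q := ⟨0, hq⟩
    have hC : IsCompact (Set.pi univ (fun k : Fin (p + q) =>
        (Fin.addCases (fun i => Prod.fst '' G i j0) (fun j => Prod.snd '' G i0 j) k :
          Set ℝ))) := by
      refine isCompact_univ_pi ?_
      intro k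
      refine Fin.addCases ?_ ?_ k
      · intro i
        rw [Fin.addCases_left]
        exact (hG i j0).compact.image continuous_fst
      · intro j
        rw [Fin.addCases_right]
        exact (hG i0 j).compact.image continuous_snd
    refine hC.of_isClosed_subset hcl ?_
    intro x hx k _
    refine Fin.addCases ?_ ?_ k
    · intro i
      beta_reduce
      rw [Fin.addCases_left]
      exact ⟨_, hx i j0, rfl⟩
    · intro j
      beta_reduce
      rw [Fin.addCases_right]
      exact ⟨_, hx i0 j, rfl⟩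
  · -- convex
    intro x hx y hy a b ha hb hab i j
    exact (hG i j).convex (hx i j) (hy i j) ha hb hab
  · -- interior
    refine ⟨0, ?_⟩
    rw [mem_interior_iff_mem_nhds, heq, Filter.iInter_mem]
    intro i
    rw [Filter.iInter_mem]
    intro j
    refine (hcont i j).continuousAt.preimage_mem_nhds ?_
    exact mem_interior_iff_mem_nhds.1 (T1_zero_mem (hG i j))

/-- T2 -/
theorem bip_uncond {p q : ℕ} {G : Fin p → Fin q → Set (ℝ × ℝ)} (hG : ∀ i j, Pl (G i j)) :
    Unconditional (bip G) := by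
  intro x hx ε hε i j
  have h := hx i j
  have key : ∀ (s t : ℝ), (s = 1 ∨ s = -1) → (t = 1 ∨ t = -1) → ∀ z : ℝ × ℝ, z ∈ G i j →
      (s * z.1, t * z.2) ∈ G i j := by
    intro s t hs ht z hz
    rcases hs with rfl | rfl <;> rcases ht with rfl | rfl
    · simpa using hz
    · simpa using (hG i j).s2 z hz
    · simpa using (hG i j).s1 z hz
    · simpa using (hG i j).s2 _ ((hG i j).s1 z hz)
  exact key _ _ (hε _) (hε _) _ h

theorem T23_pre {p q : ℕ} (G : Fin p → Fin q → Set (ℝ × ℝ)) :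
    PR3_e p q ⁻¹' (pos (bip G)) = cor G := by
  ext z
  constructor
  · rintro ⟨h1, h2⟩
    refine ⟨fun i => ?_, fun j => ?_, fun i j => ?_⟩
    · have := h2 (Fin.castAdd q i)
      rwa [PR3_left] at this
    · have := h2 (Fin.natAdd p j)
      rwa [PR3_right] at this
    · have := h1 i j
      rwa [PR3_left, PR3_right] at this
  · rintro ⟨h1, h2, h3⟩
    refine ⟨fun i j => ?_, fun k => ?_⟩
    · rw [PR3_left, PR3_right]
      exact h3 i j
    · refine Fin.addCases (fun i => ?_) (fun j => ?_) k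
      · rw [PR3_left]; exact h1 i
      · rw [PR3_right]; exact h2 j

/-- T3. the equivalence `PR3_e p q` of `P254U/ProdU.lean` carries `cor G` to `pos (bip G)`. -/
theorem cv_bip {p q : ℕ} (G : Fin p → Fin q → Set (ℝ × ℝ)) : volume (pos (bip G)) = cv G := by
  rw [← (PR3_mp p q).measure_preimage_equiv, T23_pre]
  rfl

theorem T23_int {p q : ℕ} (G : Fin p → Fin q → Set (ℝ × ℝ)) (f : (Fin (p + q) → ℝ) → ℝ≥0∞) :
    ∫⁻ x in pos (bip G), f x = ∫⁻ z in cor G, f (PR3_e p q z) := by
  rw [← T23_pre]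
  exact ((PR3_mp p q).setLIntegral_comp_preimage_emb (PR3_e p q).measurableEmbedding f _).symm

theorem cm_bip {p q : ℕ} (G : Fin p → Fin q → Set (ℝ × ℝ)) (i : Fin p) :
    ∫⁻ x in pos (bip G), ENNReal.ofReal (x (Fin.castAdd q i)) = cm G i := by
  rw [T23_int]
  simp only [PR3_left]
  rfl

theorem cm_bip' {p q : ℕ} (G : Fin p → Fin q → Set (ℝ × ℝ)) (j : Fin q) :
    ∫⁻ x in pos (bip G), ENNReal.ofReal (x (Fin.natAdd p j)) = cm (swapG G) j := by
  rw [T23_int, cm_swap]
  simp only [PR3_right]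

end Vale.Agent.P254B
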