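import Vale.Agent.P254B.Mom
import Vale.Agent.P254B.Trn

open MeasureTheory Set Vale.Agent.P254 Vale.Agent.P254U
open scoped ENNReal

namespace Vale.Agent.P254B

theorem bip_mom {p q : ℕ} {G : Fin p → Fin q → Set (ℝ × ℝ)} (hG : ∀ i j, Pl (G i j))
    (hp : 1 ≤ p) (hq : 1 ≤ q) : MomProp (bip G) := by
  refine momProp_of_pos (bip_body hG hp hq) (bip_uncond hG) ?_
  rw [Fin.prod_univ_add, cv_bip]
  simp only [cm_bip, cm_bip']
  exact bip_main hG hp hq

end Vale.Agent.P254B
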